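import Mathlib

/-!
# P091 / Carleson-Hunt, row CH-SUM: the double (mass, energy) decomposition, abstract form
-/

namespace Vale.Agent.P091.CH.H469

open Finset

/-- `Q` is covered by trees of total top length at most `b` -/
def Forest {α : Type*} (Tree : Finset α → ℝ → Prop) (Q : Finset α) (b : ℝ) : Prop :=
  ∃ (n : ℕ) (T : Fin n → Finset α) (l : Fin n → ℝ), (∀ i, Tree (T i) (l i)) ∧
    (∀ s ∈ Q, ∃ i, s ∈ T i) ∧ ∑ i, l i ≤ b

theorem Forest.mono {α : Type*} {Tree : Finset α → ℝ → Prop} {Q Q' : Finset α} {b b' : ℝ}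
    (h : Forest Tree Q b) (hQ : Q' ⊆ Q) (hb : b ≤ b') : Forest Tree Q' b' := by
  obtain ⟨n, T, l, h1, h2, h3⟩ := h
  exact ⟨n, T, l, h1, fun s hs => h2 s (hQ hs), h3.trans hb⟩

/-- the abstract data of the decomposition -/
structure Sys {α : Type*} (Tree : Finset α → ℝ → Prop) (a : α → ℝ) (en ms : Finset α → ℝ)
    (K : ℝ) : Prop where
  hK : 0 ≤ K
  a0 : ∀ s, 0 ≤ a s
  en0 : ∀ Q, 0 ≤ en Q
  ms0 : ∀ Q, 0 ≤ ms Q
  en_mono : ∀ Q Q', Q ⊆ Q' → en Q ≤ en Q'
  ms_mono : ∀ Q Q', Q ⊆ Q' → ms Q ≤ ms Q'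
  tree_sub : ∀ T T' l, Tree T l → T' ⊆ T → Tree T' l
  tree_nonneg : ∀ T l, Tree T l → 0 ≤ l
  tree_single : ∀ s, ∃ l, Tree {s} l
  tree : ∀ T l, Tree T l → ∑ s ∈ T, a s ≤ K * en T * ms T * l

variable {α : Type*} [DecidableEq α] {Tree : Finset α → ℝ → Prop} {a : α → ℝ}
  {en ms : Finset α → ℝ} {K : ℝ}

theorem Sys.basic (S : Sys Tree a en ms K) {Q : Finset α} {e m b : ℝ} (he : en Q ≤ e)
    (hm : ms Q ≤ m) (hf : Forest Tree Q b) : ∑ s ∈ Q, a s ≤ K * e * m * b := by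
  obtain ⟨n, T, l, h1, h2, h3⟩ := hf
  have he0 : 0 ≤ e := (S.en0 Q).trans he
  have hm0 : 0 ≤ m := (S.ms0 Q).trans hm
  have h4 : ∑ s ∈ Q, a s ≤ ∑ i, ∑ s ∈ T i ∩ Q, a s := by
    have h5 : ∀ s ∈ Q, a s ≤ ∑ i, if s ∈ T i then a s else 0 := by
      intro s hs
      obtain ⟨i, hi⟩ := h2 s hs
      have h6 := single_le_sum (f := fun i => if s ∈ T i then a s else 0)
        (fun i _ => by
          show (0 : ℝ) ≤ if s ∈ T i then a s else 0
          split_ifs
          · exact S.a0 s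
          · exact le_rfl) (mem_univ i)
      simpa [hi] using h6
    calc ∑ s ∈ Q, a s ≤ ∑ s ∈ Q, ∑ i, (if s ∈ T i then a s else 0) := sum_le_sum h5
      _ = ∑ i, ∑ s ∈ Q, (if s ∈ T i then a s else 0) := sum_comm
      _ = ∑ i, ∑ s ∈ T i ∩ Q, a s := by
          refine sum_congr rfl fun i _ => ?_
          rw [← sum_filter, inter_comm, filter_mem_eq_inter]
  refine h4.trans ?_
  have h6 : ∀ i, ∑ s ∈ T i ∩ Q, a s ≤ K * e * m * l i := by
    intro i
    have h7 := S.tree _ _ (S.tree_sub _ _ _ (h1 i) (inter_subset_left (s₂ := Q)))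
    have h8 : en (T i ∩ Q) ≤ e := (S.en_mono _ _ inter_subset_right).trans he
    have h9 : ms (T i ∩ Q) ≤ m := (S.ms_mono _ _ inter_subset_right).trans hm
    have hl := S.tree_nonneg _ _ (h1 i)
    refine h7.trans ?_
    refine mul_le_mul_of_nonneg_right ?_ hl
    refine mul_le_mul (mul_le_mul_of_nonneg_left h8 S.hK) h9 (S.ms0 _) ?_
    exact mul_nonneg S.hK he0
  calc ∑ i, ∑ s ∈ T i ∩ Q, a s ≤ ∑ i, K * e * m * l i := sum_le_sum fun i _ => h6 i
    _ = K * e * m * ∑ i, l i := (mul_sum _ _ _).symm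
    _ ≤ K * e * m * b := mul_le_mul_of_nonneg_left h3
        (mul_nonneg (mul_nonneg S.hK he0) hm0)

theorem Sys.basic_min (S : Sys Tree a en ms K) {Q : Finset α} {e m b b' : ℝ} (he : en Q ≤ e)
    (hm : ms Q ≤ m) (hf : Forest Tree Q b) (hf' : Forest Tree Q b') :
    ∑ s ∈ Q, a s ≤ K * e * m * min b b' := by
  rcases le_total b b' with h | h
  · rw [min_eq_left h]
    exact S.basic he hm hf
  · rw [min_eq_right h]
    exact S.basic he hm hf'

/-- the energy decomposition of a set covered by a forest -/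
theorem Sys.en_chain (S : Sys Tree a en ms K) {B : ℝ}
    (hE : ∀ (Q : Finset α) (e : ℝ), 0 < e → en Q ≤ e →
      ∃ L, L ⊆ Q ∧ en L ≤ e / 2 ∧ Forest Tree (Q \ L) (B / e ^ 2)) {m b : ℝ} :
    ∀ (M : ℕ) (Q : Finset α) (e : ℝ), 0 < e → en Q ≤ e → ms Q ≤ m → Forest Tree Q b →
      ∑ s ∈ Q, a s ≤ (∑ j ∈ range M, K * (e / 2 ^ j) * m * min b (B * 4 ^ j / e ^ 2)) +
        K * (e / 2 ^ M) * m * b := by
  intro M
  induction M with
  | zero =>
    intro Q e _ he' hm hf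
    simpa using S.basic he' hm hf
  | succ M ih =>
    intro Q e he he' hm hf
    obtain ⟨L, hL, hL1, hL2⟩ := hE Q e he he'
    have h1 : ∑ s ∈ Q \ L, a s ≤ K * e * m * min b (B / e ^ 2) := by
      refine S.basic_min ((S.en_mono _ _ sdiff_subset).trans he')
        ((S.ms_mono _ _ sdiff_subset).trans hm) (hf.mono sdiff_subset le_rfl) hL2
    have h2 := ih L (e / 2) (by positivity) hL1 ((S.ms_mono _ _ hL).trans hm)
      (hf.mono hL le_rfl)
    have h3 : ∑ s ∈ Q, a s = ∑ s ∈ Q \ L, a s + ∑ s ∈ L, a s := (sum_sdiff hL).symm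
    rw [h3, sum_range_succ']
    have h4 : ∀ j : ℕ, K * (e / 2 / 2 ^ j) * m * min b (B * 4 ^ j / (e / 2) ^ 2) =
        K * (e / 2 ^ (j + 1)) * m * min b (B * 4 ^ (j + 1) / e ^ 2) := by
      intro j
      have e1 : e / 2 / 2 ^ j = e / 2 ^ (j + 1) := by
        rw [pow_succ, div_div, mul_comm 2]
      have e2 : B * 4 ^ j / (e / 2) ^ 2 = B * 4 ^ (j + 1) / e ^ 2 := by
        have : e ≠ 0 := he.ne'
        field_simp
        ring
      rw [e1, e2]
    have h5 : K * (e / 2 / 2 ^ M) * m * b = K * (e / 2 ^ (M + 1)) * m * b := by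
      rw [pow_succ, div_div, mul_comm 2]
    rw [sum_congr rfl fun j _ => h4 j, h5] at h2
    simp only [pow_zero, div_one, mul_one]
    linarith

/-- the mass decomposition on top of it -/
theorem Sys.ms_chain (S : Sys Tree a en ms K) {A B : ℝ} {e : ℝ} (he : 0 < e)
    (hM : ∀ (Q : Finset α) (m : ℝ), 0 < m → ms Q ≤ m →
      ∃ L, L ⊆ Q ∧ ms L ≤ m / 4 ∧ Forest Tree (Q \ L) (A / m))
    (hE : ∀ (Q : Finset α) (e : ℝ), 0 < e → en Q ≤ e →
      ∃ L, L ⊆ Q ∧ en L ≤ e / 2 ∧ Forest Tree (Q \ L) (B / e ^ 2))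
    (len : α → ℝ) (hlen : ∀ s, Tree {s} (len s)) (M : ℕ) :
    ∀ (N : ℕ) (Q : Finset α) (m : ℝ), 0 < m → en Q ≤ e → ms Q ≤ m →
      ∑ s ∈ Q, a s ≤ (∑ n ∈ range N, ((∑ j ∈ range M, K * (e / 2 ^ j) * (m / 4 ^ n) *
        min (A / (m / 4 ^ n)) (B * 4 ^ j / e ^ 2)) +
        K * (e / 2 ^ M) * (m / 4 ^ n) * (A / (m / 4 ^ n)))) +
        K * e * (m / 4 ^ N) * ∑ s ∈ Q, len s := by
  intro N
  induction N with
  | zero =>
    intro Q m hm he' hm'
    simp only [range_zero, sum_empty, pow_zero, div_one, zero_add]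
    rw [mul_sum]
    refine sum_le_sum fun s hs => ?_
    have h1 := S.tree _ _ (hlen s)
    rw [sum_singleton] at h1
    have h2 : en {s} ≤ e := (S.en_mono _ _ (singleton_subset_iff.2 hs)).trans he'
    have h3 : ms {s} ≤ m := (S.ms_mono _ _ (singleton_subset_iff.2 hs)).trans hm'
    refine h1.trans (mul_le_mul_of_nonneg_right ?_ (S.tree_nonneg _ _ (hlen s)))
    exact mul_le_mul (mul_le_mul_of_nonneg_left h2 S.hK) h3 (S.ms0 _) (mul_nonneg S.hK he.le)
  | succ N ih =>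
    intro Q m hm he' hm'
    obtain ⟨L, hL, hL1, hL2⟩ := hM Q m hm hm'
    have h1 := S.en_chain hE (m := m) M (Q \ L) e he ((S.en_mono _ _ sdiff_subset).trans he')
      ((S.ms_mono _ _ sdiff_subset).trans hm') hL2
    have h2 := ih L (m / 4) (by positivity) ((S.en_mono _ _ hL).trans he') hL1
    have h3 : ∑ s ∈ Q, a s = ∑ s ∈ Q \ L, a s + ∑ s ∈ L, a s := (sum_sdiff hL).symm
    rw [h3, sum_range_succ']
    have h4 : ∀ n : ℕ, m / 4 / 4 ^ n = m / 4 ^ (n + 1) := by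
      intro n
      rw [pow_succ, div_div, mul_comm 4]
    simp only [h4] at h2
    have h5 : K * e * (m / 4 ^ (N + 1)) * ∑ s ∈ L, len s ≤
        K * e * (m / 4 ^ (N + 1)) * ∑ s ∈ Q, len s := by
      refine mul_le_mul_of_nonneg_left ?_ (mul_nonneg (mul_nonneg S.hK he.le) (by positivity))
      exact sum_le_sum_of_subset_of_nonneg hL fun s _ _ => S.tree_nonneg _ _ (hlen s)
    simp only [pow_zero, div_one]
    linarith

/-- the one-variable inequality behind the logarithm -/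
theorem min_one_le {x : ℝ} (hx : 0 ≤ x) :
    min 1 x ≤ 3 * (Real.log (1 + x) - Real.log (1 + x / 4)) := by
  have h1 : 0 < 1 + x := by linarith
  have h2 : 0 < 1 + x / 4 := by linarith
  have h3 : Real.log (1 + x) - Real.log (1 + x / 4) = -Real.log ((1 + x / 4) / (1 + x)) := by
    rw [Real.log_div h2.ne' h1.ne']
    ring
  have h4 : Real.log ((1 + x / 4) / (1 + x)) ≤ (1 + x / 4) / (1 + x) - 1 :=
    Real.log_le_sub_one_of_pos (div_pos h2 h1)
  have h5 : 1 - (1 + x / 4) / (1 + x) = 3 / 4 * (x / (1 + x)) := by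
    field_simp
    ring
  have h6 : min 1 x ≤ 2 * (x / (1 + x)) := by
    rcases le_total x 1 with h | h
    · rw [min_eq_right h, mul_div_assoc', le_div_iff₀ h1]
      nlinarith
    · rw [min_eq_left h, mul_div_assoc', le_div_iff₀ h1]
      linarith
  rw [h3]
  have h7 : 0 ≤ x / (1 + x) := div_nonneg hx h1.le
  linarith

theorem sum_min_le {D : ℝ} (hD : 0 ≤ D) (N : ℕ) :
    ∑ n ∈ range N, min 1 (D / 4 ^ n) ≤ 3 * Real.log (1 + D) := by
  have h1 : ∀ N : ℕ, ∑ n ∈ range N, min 1 (D / 4 ^ n) ≤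
      3 * (Real.log (1 + D) - Real.log (1 + D / 4 ^ N)) := by
    intro N
    induction N with
    | zero => simp
    | succ N ih =>
      rw [sum_range_succ]
      have h2 := min_one_le (x := D / 4 ^ N) (by positivity)
      have h3 : D / 4 ^ N / 4 = D / 4 ^ (N + 1) := by
        rw [pow_succ, div_div]
      rw [h3] at h2
      linarith
  refine (h1 N).trans ?_
  have h4 : 0 ≤ Real.log (1 + D / 4 ^ N) := Real.log_nonneg (by
    have : 0 ≤ D / 4 ^ N := by positivity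
    linarith)
  linarith

theorem log_four_le : Real.log 4 ≤ 3 / 2 := by
  have h : (4 : ℝ) = 2 ^ 2 := by norm_num
  rw [h, Real.log_pow]
  have := Real.log_two_lt_d9
  push_cast
  linarith

theorem sum_min_le' {D : ℝ} (hD : 0 ≤ D) (j N : ℕ) :
    ∑ n ∈ range N, min 1 (D * 4 ^ j / 4 ^ n) ≤ 3 * Real.log (1 + D) + 9 / 2 * j := by
  refine (sum_min_le (by positivity) N).trans ?_
  have h1 : Real.log (1 + D * 4 ^ j) ≤ Real.log ((1 + D) * 4 ^ j) := by
    refine Real.log_le_log (by positivity) ?_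
    have : (1 : ℝ) ≤ 4 ^ j := one_le_pow₀ (by norm_num)
    nlinarith
  have h2 : Real.log ((1 + D) * 4 ^ j) = Real.log (1 + D) + j * Real.log 4 := by
    rw [Real.log_mul (by positivity) (by positivity), Real.log_pow]
  have h3 : (j : ℝ) * Real.log 4 ≤ j * (3 / 2) :=
    mul_le_mul_of_nonneg_left log_four_le (Nat.cast_nonneg j)
  linarith

theorem sum_geom_le (M : ℕ) : ∑ j ∈ range M, (1 / 2 : ℝ) ^ j ≤ 2 := by
  have h : ∀ M : ℕ, ∑ j ∈ range M, (1 / 2 : ℝ) ^ j = 2 - 2 * (1 / 2) ^ M := by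
    intro M
    induction M with
    | zero => simp
    | succ M ih => rw [sum_range_succ, ih, pow_succ]; ring
  rw [h]
  have : (0 : ℝ) ≤ (1 / 2) ^ M := by positivity
  linarith

theorem sum_j_geom_le (M : ℕ) : ∑ j ∈ range M, (j : ℝ) * (1 / 2 : ℝ) ^ j ≤ 2 := by
  have h : ∀ M : ℕ, ∑ j ∈ range M, (j : ℝ) * (1 / 2 : ℝ) ^ j = 2 - (2 * M + 2) * (1 / 2) ^ M := by
    intro M
    induction M with
    | zero => simp
    | succ M ih => rw [sum_range_succ, ih, pow_succ]; push_cast; ring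
  rw [h]
  have : (0 : ℝ) ≤ (2 * M + 2) * (1 / 2) ^ M := by positivity
  linarith

/-- **CH-SUM.** -/
theorem Sys.sum_le (S : Sys Tree a en ms K) {A B : ℝ} (hA : 0 < A) (hB : 0 ≤ B)
    (hM : ∀ (Q : Finset α) (m : ℝ), 0 < m → ms Q ≤ m →
      ∃ L, L ⊆ Q ∧ ms L ≤ m / 4 ∧ Forest Tree (Q \ L) (A / m))
    (hE : ∀ (Q : Finset α) (e : ℝ), 0 < e → en Q ≤ e →
      ∃ L, L ⊆ Q ∧ en L ≤ e / 2 ∧ Forest Tree (Q \ L) (B / e ^ 2))
    (P : Finset α) {e m : ℝ} (he : 0 < e) (hm : 0 < m) (heP : en P ≤ e) (hmP : ms P ≤ m) :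
    ∑ s ∈ P, a s ≤ K * A * e * (9 + 6 * Real.log (1 + B * m / (A * e ^ 2))) := by
  choose len hlen using S.tree_single
  set D : ℝ := B * m / (A * e ^ 2) with hDdef
  have hD : 0 ≤ D := by positivity
  have hK := S.hK
  have key : ∀ N : ℕ, ∑ s ∈ P, a s ≤ K * A * e * (9 + 6 * Real.log (1 + D)) +
      (K * A * e * (N * (1 / 2) ^ N) + K * e * m * (∑ s ∈ P, len s) * (1 / 4) ^ N) := by
    intro N
    have h1 := S.ms_chain he hM hE len hlen N N P m hm heP hmP
    refine h1.trans ?_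
    have h2 : ∀ n j : ℕ, K * (e / 2 ^ j) * (m / 4 ^ n) *
        min (A / (m / 4 ^ n)) (B * 4 ^ j / e ^ 2) =
        K * A * e * ((1 / 2) ^ j * min 1 (D * 4 ^ j / 4 ^ n)) := by
      intro n j
      have e1 : min (A / (m / 4 ^ n)) (B * 4 ^ j / e ^ 2) =
          A / (m / 4 ^ n) * min 1 (D * 4 ^ j / 4 ^ n) := by
        rw [mul_min_of_nonneg _ _ (by positivity), mul_one]
        congr 1
        rw [hDdef]
        field_simp
      rw [e1, one_div, inv_pow]
      field_simp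
    have h3 : ∀ n : ℕ, K * (e / 2 ^ N) * (m / 4 ^ n) * (A / (m / 4 ^ n)) =
        K * A * e * (1 / 2) ^ N := by
      intro n
      rw [one_div, inv_pow]
      field_simp
    simp only [h2, h3]
    rw [sum_add_distrib, sum_const, card_range, nsmul_eq_mul]
    have h4 : ∑ n ∈ range N, ∑ j ∈ range N, K * A * e * ((1 / 2) ^ j *
        min 1 (D * 4 ^ j / 4 ^ n)) = K * A * e * ∑ j ∈ range N, ((1 / 2 : ℝ) ^ j *
        ∑ n ∈ range N, min 1 (D * 4 ^ j / 4 ^ n)) := by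
      rw [sum_comm, mul_sum]
      refine sum_congr rfl fun j _ => ?_
      rw [mul_sum, mul_sum]
    have h5 : ∑ j ∈ range N, ((1 / 2 : ℝ) ^ j * ∑ n ∈ range N, min 1 (D * 4 ^ j / 4 ^ n)) ≤
        9 + 6 * Real.log (1 + D) := by
      have hlog : 0 ≤ Real.log (1 + D) := Real.log_nonneg (by linarith)
      calc ∑ j ∈ range N, ((1 / 2 : ℝ) ^ j * ∑ n ∈ range N, min 1 (D * 4 ^ j / 4 ^ n))
          ≤ ∑ j ∈ range N, ((1 / 2 : ℝ) ^ j * (3 * Real.log (1 + D) + 9 / 2 * j)) :=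
            sum_le_sum fun j _ => mul_le_mul_of_nonneg_left (sum_min_le' hD j N) (by positivity)
        _ = 3 * Real.log (1 + D) * ∑ j ∈ range N, (1 / 2 : ℝ) ^ j +
            9 / 2 * ∑ j ∈ range N, (j : ℝ) * (1 / 2 : ℝ) ^ j := by
            rw [mul_sum, mul_sum, ← sum_add_distrib]
            refine sum_congr rfl fun j _ => by ring
        _ ≤ 3 * Real.log (1 + D) * 2 + 9 / 2 * 2 := by
            refine add_le_add (mul_le_mul_of_nonneg_left (sum_geom_le N) (by positivity))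
              (mul_le_mul_of_nonneg_left (sum_j_geom_le N) (by norm_num))
        _ = 9 + 6 * Real.log (1 + D) := by ring
    have h6 : K * A * e * ∑ j ∈ range N, ((1 / 2 : ℝ) ^ j *
        ∑ n ∈ range N, min 1 (D * 4 ^ j / 4 ^ n)) ≤ K * A * e * (9 + 6 * Real.log (1 + D)) :=
      mul_le_mul_of_nonneg_left h5 (by positivity)
    have h7 : K * e * (m / 4 ^ N) * ∑ s ∈ P, len s =
        K * e * m * (∑ s ∈ P, len s) * (1 / 4) ^ N := by
      rw [one_div, inv_pow]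
      field_simp
    rw [h4, h7]
    linarith
  have hlim : Filter.Tendsto (fun N : ℕ => K * A * e * (9 + 6 * Real.log (1 + D)) +
      (K * A * e * (N * (1 / 2 : ℝ) ^ N) + K * e * m * (∑ s ∈ P, len s) * (1 / 4 : ℝ) ^ N))
      Filter.atTop (nhds (K * A * e * (9 + 6 * Real.log (1 + D)) +
      (K * A * e * 0 + K * e * m * (∑ s ∈ P, len s) * 0))) := by
    refine Filter.Tendsto.add tendsto_const_nhds ((Filter.Tendsto.const_mul _ ?_).add
      (Filter.Tendsto.const_mul _ ?_))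
    · exact tendsto_self_mul_const_pow_of_lt_one (by norm_num) (by norm_num)
    · exact tendsto_pow_atTop_nhds_zero_of_lt_one (by norm_num) (by norm_num)
  have h := ge_of_tendsto' hlim key
  simpa using h

end Vale.Agent.P091.CH.H469
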